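import Mathlib

/-!
# P335: the switch chain on simple graphs with a given degree vector (definitions)
-/

namespace Vale.Agent.Lib.P335

open Finset Classical

variable {n : ℕ}

/-- `Ω_d`: the simple graphs on `Fin n` with degree `d v` at every vertex `v` -/
noncomputable def Omega (d : Fin n → ℕ) : Finset (SimpleGraph (Fin n)) :=
  univ.filter (fun G => ∀ v, (univ.filter (fun w => G.Adj v w)).card = d v)

/-- One proposal of the switch chain, coded by an injective 4-tuple `t = (a,b,c,e)`:
the 4-set is `S = {a,b,c,e}`, the ordered pair of perfect matchings of `S` is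
`F = {ab, ce}`, `F' = {ac, be}`.  If both edges of `F` are present and both edges of `F'` are
absent, `F` is replaced by `F'`; otherwise nothing happens.
(Every triple `(S, F, F')` is coded by exactly 4 of the `n(n-1)(n-2)(n-3) = 24 * C(n,4)` tuples, so a
uniform tuple is a uniform 4-set `S` followed by a uniform ordered pair `(F, F')` out of the six.) -/
noncomputable def switchG (G : SimpleGraph (Fin n)) (t : Fin 4 ↪ Fin n) : SimpleGraph (Fin n) :=
  if G.Adj (t 0) (t 1) ∧ G.Adj (t 2) (t 3) ∧ ¬ G.Adj (t 0) (t 2) ∧ ¬ G.Adj (t 1) (t 3) then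
    (G \ SimpleGraph.fromEdgeSet {s(t 0, t 1), s(t 2, t 3)}) ⊔
      SimpleGraph.fromEdgeSet {s(t 0, t 2), s(t 1, t 3)}
  else G

/-- transition matrix of the non-lazy proposal step -/
noncomputable def Qmat (n : ℕ) : Matrix (SimpleGraph (Fin n)) (SimpleGraph (Fin n)) ℝ :=
  fun G G' => ((univ.filter (fun t : Fin 4 ↪ Fin n => switchG G t = G')).card : ℝ) /
    (Fintype.card (Fin 4 ↪ Fin n) : ℝ)

/-- transition matrix of the switch chain: stay put with probability 1/2, else make a proposal -/
noncomputable def Pmat (n : ℕ) : Matrix (SimpleGraph (Fin n)) (SimpleGraph (Fin n)) ℝ :=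
  (1 / 2 : ℝ) • (1 + Qmat n)

/-- total variation distance between `P^t(G, .)` and the uniform distribution on `Ω_d` -/
noncomputable def tvDist (d : Fin n → ℕ) (t : ℕ) (G : SimpleGraph (Fin n)) : ℝ :=
  (1 / 2 : ℝ) * ∑ G' ∈ Omega d, |((Pmat n) ^ t) G G' - 1 / ((Omega d).card : ℝ)|

/-- the mixing time `t_mix(d)` -/
noncomputable def tmix (d : Fin n → ℕ) : ℕ :=
  sInf {t : ℕ | ∀ G ∈ Omega d, tvDist d t G ≤ 1 / 4}

/-- all realisations of `d` agree on the pairs inside `U` and on the pairs inside the complement -/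
def Frozen (d : Fin n → ℕ) (U : Finset (Fin n)) : Prop :=
  ∀ G ∈ Omega d, ∀ G' ∈ Omega d, ∀ a b, (a ∈ U ↔ b ∈ U) → (G.Adj a b ↔ G'.Adj a b)

/-- `d` is a split degree vector with clique side `U`:
equality in the Erdos-Gallai type inequality `∑_U d ≤ |U|(|U|-1) + ∑_{V∖U} d` -/
def IsSplit (d : Fin n → ℕ) (U : Finset (Fin n)) : Prop :=
  ∑ u ∈ U, d u = U.card * (U.card - 1) + ∑ w ∈ Uᶜ, d w

/-- the rows of the bipartite adjacency matrix between `U` and its complement -/
noncomputable def rowsOf (U : Finset (Fin n)) (G : SimpleGraph (Fin n)) : Fin n → Finset (Fin n) :=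
  fun u => if u ∈ U then univ.filter (fun w => w ∉ U ∧ G.Adj u w) else ∅

end Vale.Agent.Lib.P335
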