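import Vale.Agent.Lib.P335_helper14.AvgApi
import Vale.Agent.Lib.P335_helper14.RelApi

/-!
P335, three-row lemma, cross-type coupling (helper20).
-/

namespace P335h14

open Finset

set_option linter.unusedSectionVars false

section Mat
variable {ι γ : Type*} [Fintype ι] [DecidableEq ι] [Fintype γ] [DecidableEq γ]

theorem cc_ind_le (s : Finset γ) (x : γ) : ind s x ≤ 1 := by
  unfold ind; split_ifs <;> omega

theorem cc_ind_pos {s : Finset γ} {x : γ} (h : x ∈ s) : ind s x = 1 := by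
  unfold ind; rw [if_pos h]

theorem cc_ind_neg {s : Finset γ} {x : γ} (h : x ∉ s) : ind s x = 0 := by
  unfold ind; rw [if_neg h]

theorem cc_mem_of_ind {s : Finset γ} {x : γ} (h : ind s x = 1) : x ∈ s := by
  by_contra hx
  rw [cc_ind_neg hx] at h
  omega

theorem cc_not_mem_of_ind {s : Finset γ} {x : γ} (h : ind s x = 0) : x ∉ s := by
  intro hx
  rw [cc_ind_pos hx] at h
  omega

/-- the data of a cross-type exchange at row `k` -/
structure CC (T : Finset ι) (i j k : ι) (M : Mat ι γ) (c c' : γ) : Prop where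
  hT : T = {i, j, k}
  hij : i ≠ j
  hik : i ≠ k
  hjk : j ≠ k
  hc : c ∈ M k
  hc' : c' ∉ M k
  hci : c ∉ M i
  hcj : c ∉ M j
  hc'i : c' ∈ M i
  hc'j : c' ∈ M j

theorem CC.swap {T : Finset ι} {i j k : ι} {M : Mat ι γ} {c c' : γ} (h : CC T i j k M c c') :
    CC T j i k M c c' :=
  ⟨by rw [h.hT, Finset.insert_comm], h.hij.symm, h.hjk, h.hik, h.hc, h.hc', h.hcj, h.hci, h.hc'j, h.hc'i⟩

theorem CC.hcc {T : Finset ι} {i j k : ι} {M : Mat ι γ} {c c' : γ} (h : CC T i j k M c c') :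
    c ≠ c' := fun e => h.hc' (e ▸ h.hc)

theorem CC.sub_ki {T : Finset ι} {i j k : ι} {M : Mat ι γ} {c c' : γ} (h : CC T i j k M c c') :
    ({k, i} : Finset ι) ⊆ T := by
  rw [h.hT]; intro a ha
  simp only [Finset.mem_insert, Finset.mem_singleton] at ha ⊢
  tauto

theorem CC.sub_ij {T : Finset ι} {i j k : ι} {M : Mat ι γ} {c c' : γ} (h : CC T i j k M c c') :
    ({i, j} : Finset ι) ⊆ T := by
  rw [h.hT]; intro a ha
  simp only [Finset.mem_insert, Finset.mem_singleton] at ha ⊢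
  tauto

theorem CC.col {T : Finset ι} {i j k : ι} {M : Mat ι γ} {c c' : γ} (h : CC T i j k M c c')
    {P Q : Mat ι γ} (hr : Rel T P Q) (x : γ) :
    ind (P i) x + ind (P j) x + ind (P k) x = ind (Q i) x + ind (Q j) x + ind (Q k) x := by
  rw [h.hT] at hr
  exact ((rel_triple_iff h.hij h.hik h.hjk P Q).mp hr).2.2.2.2 x

/-- inside a `T`-class, equal `k`-rows means `{i,j}`-related -/
theorem CC.pair_iff {T : Finset ι} {i j k : ι} {M : Mat ι γ} {c c' : γ} (h : CC T i j k M c c')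
    (P Q : Mat ι γ) : Rel {i, j} P Q ↔ Rel T P Q ∧ Q k = P k := by
  constructor
  · intro hr
    refine ⟨Rel.mono h.sub_ij hr, (hr.1 k ?_).symm⟩
    simp only [Finset.mem_insert, Finset.mem_singleton, not_or]
    exact ⟨h.hik.symm, h.hjk.symm⟩
  · rintro ⟨hr, hk⟩
    have hcol := h.col hr
    rw [h.hT] at hr
    obtain ⟨h1, h2, h3, -, -⟩ := (rel_triple_iff h.hij h.hik h.hjk P Q).mp hr
    rw [rel_pair_iff h.hij]
    refine ⟨fun a hai haj => ?_, h2, h3, fun x => ?_⟩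
    · by_cases hak : a = k
      · subst hak; exact hk.symm
      · exact h1 a hai haj hak
    · have := hcol x
      rw [hk] at this
      omega

/-- the fibre over the row `M k` -/
def cF (T : Finset ι) (k : ι) (M : Mat ι γ) : Finset (Mat ι γ) :=
  univ.filter (fun N => Rel T M N ∧ N k = M k)

/-- the fibre over the exchanged row -/
def cF' (T : Finset ι) (k : ι) (M : Mat ι γ) (c c' : γ) : Finset (Mat ι γ) :=
  univ.filter (fun N => Rel T M N ∧ N k = insert c' ((M k).erase c))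

theorem mem_cF {T : Finset ι} {k : ι} {M N : Mat ι γ} : N ∈ cF T k M ↔ Rel T M N ∧ N k = M k := by
  unfold cF; simp

theorem mem_cF' {T : Finset ι} {k : ι} {M N : Mat ι γ} {c c' : γ} :
    N ∈ cF' T k M c c' ↔ Rel T M N ∧ N k = insert c' ((M k).erase c) := by
  unfold cF'; simp

theorem CC.factsF {T : Finset ι} {i j k : ι} {M : Mat ι γ} {c c' : γ} (h : CC T i j k M c c')
    {N : Mat ι γ} (hN : N ∈ cF T k M) :
    c ∈ N k ∧ c' ∉ N k ∧ c ∉ N i ∧ c ∉ N j ∧ c' ∈ N i ∧ c' ∈ N j := by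
  rw [mem_cF] at hN
  obtain ⟨hr, hk⟩ := hN
  have h1 := h.col hr c
  have h2 := h.col hr c'
  rw [hk, cc_ind_neg h.hci, cc_ind_neg h.hcj] at h1
  rw [hk, cc_ind_pos h.hc'i, cc_ind_pos h.hc'j] at h2
  have a1 := cc_ind_le (N i) c'
  have a2 := cc_ind_le (N j) c'
  refine ⟨hk ▸ h.hc, hk ▸ h.hc', cc_not_mem_of_ind (by omega), cc_not_mem_of_ind (by omega),
    cc_mem_of_ind (by omega), cc_mem_of_ind (by omega)⟩

theorem CC.factsF' {T : Finset ι} {i j k : ι} {M : Mat ι γ} {c c' : γ} (h : CC T i j k M c c')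
    {N : Mat ι γ} (hN : N ∈ cF' T k M c c') :
    c ∉ N k ∧ c' ∈ N k ∧ ind (N i) c + ind (N j) c = 1 ∧ ind (N i) c' + ind (N j) c' = 1 := by
  rw [mem_cF'] at hN
  obtain ⟨hr, hk⟩ := hN
  have hck : c ∉ N k := by rw [hk]; simp [h.hcc]
  have hck' : c' ∈ N k := by rw [hk]; simp
  have h1 := h.col hr c
  have h2 := h.col hr c'
  rw [cc_ind_neg h.hci, cc_ind_neg h.hcj, cc_ind_pos h.hc, cc_ind_neg hck] at h1
  rw [cc_ind_pos h.hc'i, cc_ind_pos h.hc'j, cc_ind_neg h.hc', cc_ind_pos hck'] at h2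
  exact ⟨hck, hck', by omega, by omega⟩

theorem CC.row_back {T : Finset ι} {i j k : ι} {M : Mat ι γ} {c c' : γ} (h : CC T i j k M c c') :
    insert c ((insert c' ((M k).erase c)).erase c') = M k := by
  ext x
  simp only [Finset.mem_insert, Finset.mem_erase]
  by_cases hx : x = c
  · subst hx; simp [h.hc]
  · by_cases hx' : x = c'
    · subst hx'; simp [h.hc', hx]
    · simp [hx, hx']

/-- part alpha -/
theorem CC.sum_alpha {T : Finset ι} {i j k : ι} {M : Mat ι γ} {c c' : γ} (h : CC T i j k M c c')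
    (g : Mat ι γ → ℝ) :
    ∑ N ∈ cF T k M, g (sw N k i c c')
      = ∑ N ∈ (cF' T k M c c').filter (fun N => c ∈ N i ∧ c' ∉ N i), g N := by
  refine Finset.sum_bij' (fun N _ => sw N k i c c') (fun N _ => sw N k i c' c) ?_ ?_ ?_ ?_ ?_
  · intro N hN
    obtain ⟨f1, f2, f3, f4, f5, f6⟩ := h.factsF hN
    have hok : SwOK N k i c c' := ⟨h.hik.symm, f1, f3, f5, f2⟩
    rw [mem_cF] at hN
    rw [Finset.mem_filter, mem_cF']
    refine ⟨⟨(Rel.equiv T).trans hN.1 (Rel.mono h.sub_ki (rel_sw hok)), ?_⟩, ?_, ?_⟩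
    · rw [sw_apply_left h.hik.symm, hN.2]
    · rw [sw_apply_right]; simp
    · rw [sw_apply_right]; simp [h.hcc.symm]
  · intro N hN
    rw [Finset.mem_filter] at hN
    obtain ⟨hN, g1, g2⟩ := hN
    obtain ⟨f1, f2, -, -⟩ := h.factsF' hN
    have hok : SwOK N k i c' c := ⟨h.hik.symm, f2, g2, g1, f1⟩
    rw [mem_cF'] at hN
    rw [mem_cF]
    refine ⟨(Rel.equiv T).trans hN.1 (Rel.mono h.sub_ki (rel_sw hok)), ?_⟩
    rw [sw_apply_left h.hik.symm, hN.2, h.row_back]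
  · intro N hN
    obtain ⟨f1, f2, f3, f4, f5, f6⟩ := h.factsF hN
    have hok : SwOK N k i c c' := ⟨h.hik.symm, f1, f3, f5, f2⟩
    exact (swOK_rev hok).2
  · intro N hN
    rw [Finset.mem_filter] at hN
    obtain ⟨hN, g1, g2⟩ := hN
    obtain ⟨f1, f2, -, -⟩ := h.factsF' hN
    have hok : SwOK N k i c' c := ⟨h.hik.symm, f2, g2, g1, f1⟩
    exact (swOK_rev hok).2
  · intro N _
    rfl

theorem CC.sub_kj {T : Finset ι} {i j k : ι} {M : Mat ι γ} {c c' : γ} (h : CC T i j k M c c') :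
    ({k, j} : Finset ι) ⊆ T := h.swap.sub_ki

theorem CC.sub_ji {T : Finset ι} {i j k : ι} {M : Mat ι γ} {c c' : γ} (h : CC T i j k M c c') :
    ({j, i} : Finset ι) ⊆ T := h.swap.sub_ij

theorem CC.gamma_fwd {T : Finset ι} {i j k : ι} {M : Mat ι γ} {c c' : γ} (h : CC T i j k M c c')
    {N : Mat ι γ} (hN : N ∈ cF T k M) {e : γ} (he : e ∈ N i) (he' : e ∉ N j) :
    SwOK N k j c c' ∧ SwOK (sw N k j c c') j i c e ∧
      sw (sw N k j c c') j i c e ∈ cF' T k M c c' ∧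
      c ∈ sw (sw N k j c c') j i c e i ∧ c' ∈ sw (sw N k j c c') j i c e i ∧
      e ∈ sw (sw N k j c c') j i c e j ∧ e ∉ sw (sw N k j c c') j i c e i := by
  obtain ⟨f1, f2, f3, f4, f5, f6⟩ := h.factsF hN
  have hec : e ≠ c := fun e1 => f3 (e1 ▸ he)
  have hec' : e ≠ c' := fun e1 => he' (e1 ▸ f6)
  have hok1 : SwOK N k j c c' := ⟨h.hjk.symm, f1, f4, f6, f2⟩
  have hPi : sw N k j c c' i = N i := sw_apply_of_ne N h.hik h.hij c c'
  have hPj : sw N k j c c' j = insert c ((N j).erase c') := sw_apply_right N k j c c'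
  have hPk : sw N k j c c' k = insert c' ((N k).erase c) := sw_apply_left h.hjk.symm c c'
  have hok2 : SwOK (sw N k j c c') j i c e := by
    refine ⟨h.hij.symm, ?_, ?_, ?_, ?_⟩
    · rw [hPj]; simp
    · rw [hPi]; exact f3
    · rw [hPi]; exact he
    · rw [hPj]; simp [hec, he']
  rw [mem_cF] at hN
  refine ⟨hok1, hok2, ?_, ?_, ?_, ?_, ?_⟩
  · rw [mem_cF']
    refine ⟨(Rel.equiv T).trans hN.1 ((Rel.equiv T).trans (Rel.mono h.sub_kj (rel_sw hok1))
      (Rel.mono h.sub_ji (rel_sw hok2))), ?_⟩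
    rw [sw_apply_of_ne _ h.hjk.symm h.hik.symm, hPk, hN.2]
  · rw [sw_apply_right]; simp
  · rw [sw_apply_right, hPi]; simp [hec'.symm, f5]
  · rw [sw_apply_left h.hij.symm]; simp
  · rw [sw_apply_right]; simp [hec]

theorem CC.gamma_bwd {T : Finset ι} {i j k : ι} {M : Mat ι γ} {c c' : γ} (h : CC T i j k M c c')
    {N : Mat ι γ} (hN : N ∈ cF' T k M c c') (hci : c ∈ N i) (hci' : c' ∈ N i)
    {e : γ} (he : e ∈ N j) (he' : e ∉ N i) :
    SwOK N j i e c ∧ SwOK (sw N j i e c) k j c' c ∧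
      sw (sw N j i e c) k j c' c ∈ cF T k M ∧
      e ∈ sw (sw N j i e c) k j c' c i ∧ e ∉ sw (sw N j i e c) k j c' c j := by
  obtain ⟨f1, f2, f3, f4⟩ := h.factsF' hN
  rw [cc_ind_pos hci] at f3
  rw [cc_ind_pos hci'] at f4
  have hcj : c ∉ N j := cc_not_mem_of_ind (by omega)
  have hcj' : c' ∉ N j := cc_not_mem_of_ind (by omega)
  have hec : e ≠ c := fun e1 => he' (e1 ▸ hci)
  have hec' : e ≠ c' := fun e1 => he' (e1 ▸ hci')
  have hok1 : SwOK N j i e c := ⟨h.hij.symm, he, he', hci, hcj⟩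
  have hPi : sw N j i e c i = insert e ((N i).erase c) := sw_apply_right N j i e c
  have hPj : sw N j i e c j = insert c ((N j).erase e) := sw_apply_left h.hij.symm e c
  have hPk : sw N j i e c k = N k := sw_apply_of_ne N h.hjk.symm h.hik.symm e c
  have hok2 : SwOK (sw N j i e c) k j c' c := by
    refine ⟨h.hjk.symm, ?_, ?_, ?_, ?_⟩
    · rw [hPk]; exact f2
    · rw [hPj]; simp [h.hcc.symm, hcj']
    · rw [hPj]; simp
    · rw [hPk]; exact f1
  rw [mem_cF'] at hN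
  refine ⟨hok1, hok2, ?_, ?_, ?_⟩
  · rw [mem_cF]
    refine ⟨(Rel.equiv T).trans hN.1 ((Rel.equiv T).trans (Rel.mono h.sub_ji (rel_sw hok1))
      (Rel.mono h.sub_kj (rel_sw hok2))), ?_⟩
    rw [sw_apply_left h.hjk.symm, hPk, hN.2, h.row_back]
  · rw [sw_apply_of_ne _ h.hik h.hij, hPi]; simp
  · rw [sw_apply_right, hPj]; simp [hec, hec']

/-- part gamma -/
theorem CC.sum_gamma {T : Finset ι} {i j k : ι} {M : Mat ι γ} {c c' : γ} (h : CC T i j k M c c')
    (g : Mat ι γ → ℝ) :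
    ∑ N ∈ cF T k M, ∑ e ∈ N i \ N j, g (sw (sw N k j c c') j i c e)
      = ∑ N ∈ (cF' T k M c c').filter (fun N => c ∈ N i ∧ c' ∈ N i), ∑ _e ∈ N j \ N i, g N := by
  rw [Finset.sum_sigma', Finset.sum_sigma']
  refine Finset.sum_bij'
    (fun x _ => (⟨sw (sw x.1 k j c c') j i c x.2, x.2⟩ : (_ : Mat ι γ) × γ))
    (fun x _ => (⟨sw (sw x.1 j i x.2 c) k j c' c, x.2⟩ : (_ : Mat ι γ) × γ)) ?_ ?_ ?_ ?_ ?_
  · rintro ⟨N, e⟩ hx
    simp only [Finset.mem_sigma, Finset.mem_sdiff] at hx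
    obtain ⟨-, -, a1, a2, a3, a4, a5⟩ := h.gamma_fwd hx.1 hx.2.1 hx.2.2
    simp only [Finset.mem_sigma, Finset.mem_sdiff, Finset.mem_filter]
    exact ⟨⟨a1, a2, a3⟩, a4, a5⟩
  · rintro ⟨N, e⟩ hx
    simp only [Finset.mem_sigma, Finset.mem_sdiff, Finset.mem_filter] at hx
    obtain ⟨-, -, a1, a2, a3⟩ := h.gamma_bwd hx.1.1 hx.1.2.1 hx.1.2.2 hx.2.1 hx.2.2
    simp only [Finset.mem_sigma, Finset.mem_sdiff]
    exact ⟨a1, a2, a3⟩
  · rintro ⟨N, e⟩ hx
    simp only [Finset.mem_sigma, Finset.mem_sdiff] at hx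
    obtain ⟨b1, b2, -⟩ := h.gamma_fwd hx.1 hx.2.1 hx.2.2
    simp only
    rw [(swOK_rev b2).2, (swOK_rev b1).2]
  · rintro ⟨N, e⟩ hx
    simp only [Finset.mem_sigma, Finset.mem_sdiff, Finset.mem_filter] at hx
    obtain ⟨b1, b2, -⟩ := h.gamma_bwd hx.1.1 hx.1.2.1 hx.1.2.2 hx.2.1 hx.2.2
    simp only
    rw [(swOK_rev b2).2, (swOK_rev b1).2]
  · rintro ⟨N, e⟩ _
    rfl

theorem cc_mem_inter_iff {s t : Finset γ} {x : γ} : x ∈ s ∩ t ↔ ind s x + ind t x = 2 := by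
  unfold ind
  by_cases h1 : x ∈ s <;> by_cases h2 : x ∈ t <;> simp [h1, h2]

theorem CC.cardF {T : Finset ι} {i j k : ι} {M : Mat ι γ} {c c' : γ} (h : CC T i j k M c c')
    {N : Mat ι γ} (hN : N ∈ cF T k M) : (N i \ N j).card = (M i \ M j).card := by
  rw [mem_cF] at hN
  have hint : N i ∩ N j = M i ∩ M j := by
    ext x
    rw [cc_mem_inter_iff, cc_mem_inter_iff]
    have := h.col hN.1 x
    rw [hN.2] at this
    omega
  have h1 := Finset.card_sdiff_add_card_inter (N i) (N j)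
  have h2 := Finset.card_sdiff_add_card_inter (M i) (M j)
  have h3 := hN.1.2.1 i
  rw [hint] at h1
  omega

theorem CC.cardF' {T : Finset ι} {i j k : ι} {M : Mat ι γ} {c c' : γ} (h : CC T i j k M c c')
    {N : Mat ι γ} (hN : N ∈ cF' T k M c c') : (N j \ N i).card = (M j \ M i).card + 1 := by
  obtain ⟨f1, f2, f3, f4⟩ := h.factsF' hN
  rw [mem_cF'] at hN
  have hint : N j ∩ N i = (M j ∩ M i).erase c' := by
    ext x
    rw [Finset.mem_erase, cc_mem_inter_iff, cc_mem_inter_iff]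
    by_cases hx' : x = c'
    · subst hx'
      simp only [ne_eq, not_true_eq_false, false_and, iff_false]
      omega
    · by_cases hx : x = c
      · subst hx
        rw [cc_ind_neg h.hci, cc_ind_neg h.hcj]
        simp only [ne_eq, hx', not_false_eq_true, true_and]
        omega
      · have := h.col hN.1 x
        have e1 : ind (N k) x = ind (M k) x := by
          rw [hN.2]
          unfold ind
          simp [hx, hx']
        rw [e1] at this
        simp only [ne_eq, hx', not_false_eq_true, true_and]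
        omega
  have h1 := Finset.card_sdiff_add_card_inter (N j) (N i)
  have h2 := Finset.card_sdiff_add_card_inter (M j) (M i)
  have h3 := hN.1.2.1 j
  have hmem : c' ∈ M j ∩ M i := Finset.mem_inter.mpr ⟨h.hc'j, h.hc'i⟩
  rw [hint, Finset.card_erase_of_mem hmem] at h1
  have := Finset.card_pos.mpr ⟨c', hmem⟩
  omega

theorem CC.split {T : Finset ι} {i j k : ι} {M : Mat ι γ} {c c' : γ} (h : CC T i j k M c c')
    (g : Mat ι γ → ℝ) :
    ∑ N ∈ cF' T k M c c', g N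
      = ∑ N ∈ (cF' T k M c c').filter (fun N => c ∈ N i ∧ c' ∉ N i), g N
      + ∑ N ∈ (cF' T k M c c').filter (fun N => c ∈ N j ∧ c' ∉ N j), g N
      + ∑ N ∈ (cF' T k M c c').filter (fun N => c ∈ N i ∧ c' ∈ N i), g N
      + ∑ N ∈ (cF' T k M c c').filter (fun N => c ∈ N j ∧ c' ∈ N j), g N := by
  simp only [Finset.sum_filter]
  rw [← Finset.sum_add_distrib, ← Finset.sum_add_distrib, ← Finset.sum_add_distrib]
  apply Finset.sum_congr rfl
  intro N hN
  obtain ⟨-, -, f3, f4⟩ := h.factsF' hN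
  by_cases h1 : c ∈ N i
  · rw [cc_ind_pos h1] at f3
    have h1' : c ∉ N j := cc_not_mem_of_ind (by omega)
    by_cases h2 : c' ∈ N i
    · rw [cc_ind_pos h2] at f4
      have h2' : c' ∉ N j := cc_not_mem_of_ind (by omega)
      simp [h1, h2, h1', h2']
    · rw [cc_ind_neg h2] at f4
      have h2' : c' ∈ N j := cc_mem_of_ind (by omega)
      simp [h1, h2, h1', h2']
  · rw [cc_ind_neg h1] at f3
    have h1' : c ∈ N j := cc_mem_of_ind (by omega)
    by_cases h2 : c' ∈ N i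
    · rw [cc_ind_pos h2] at f4
      have h2' : c' ∉ N j := cc_not_mem_of_ind (by omega)
      simp [h1, h2, h1', h2']
    · rw [cc_ind_neg h2] at f4
      have h2' : c' ∈ N j := cc_mem_of_ind (by omega)
      simp [h1, h2, h1', h2']

theorem CC.sum_gamma' {T : Finset ι} {i j k : ι} {M : Mat ι γ} {c c' : γ} (h : CC T i j k M c c')
    (g : Mat ι γ → ℝ) :
    ∑ N ∈ (cF' T k M c c').filter (fun N => c ∈ N i ∧ c' ∈ N i), g N
      = (((M j \ M i).card : ℝ) + 1)⁻¹ *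
        ∑ N ∈ cF T k M, ∑ e ∈ N i \ N j, g (sw (sw N k j c c') j i c e) := by
  rw [h.sum_gamma g]
  have : ∀ N ∈ (cF' T k M c c').filter (fun N => c ∈ N i ∧ c' ∈ N i),
      ∑ _e ∈ N j \ N i, g N = (((M j \ M i).card : ℝ) + 1) * g N := by
    intro N hN
    rw [Finset.sum_const, h.cardF' (Finset.mem_filter.mp hN).1, nsmul_eq_mul]
    push_cast
    ring
  rw [Finset.sum_congr rfl this, ← Finset.mul_sum, ← mul_assoc, inv_mul_cancel₀, one_mul]
  positivity

/-- the weighted coupling identity -/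
theorem CC.sumF' {T : Finset ι} {i j k : ι} {M : Mat ι γ} {c c' : γ} (h : CC T i j k M c c')
    (g : Mat ι γ → ℝ) :
    ∑ N ∈ cF' T k M c c', g N
      = ∑ N ∈ cF T k M, (g (sw N k i c c') + g (sw N k j c c')
        + (((M j \ M i).card : ℝ) + 1)⁻¹ * ∑ e ∈ N i \ N j, g (sw (sw N k j c c') j i c e)
        + (((M i \ M j).card : ℝ) + 1)⁻¹ * ∑ e ∈ N j \ N i, g (sw (sw N k i c c') i j c e)) := by
  rw [h.split g, ← h.sum_alpha g, ← h.swap.sum_alpha g, h.sum_gamma' g, h.swap.sum_gamma' g]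
  simp only [Finset.sum_add_distrib, Finset.mul_sum]

/-- cross-type coupling (PROOF_bipartite Step 2 (b)).  Column `c` has T-sum 1 (the one sits in row `k`
of `M`), column `c'` has T-sum 2 (ones in rows `i`,`j` of `M`); `M'` is in the same T-class with row
`k` exchanged. -/
theorem cross_coupling {i j k : ι} (hij : i ≠ j) (hik : i ≠ k) (hjk : j ≠ k) {M M' : Mat ι γ}
    {c c' : γ}
    (hrel : Rel {i, j, k} M M') (hc : c ∈ M k) (hc' : c' ∉ M k)
    (hM' : M' k = insert c' ((M k).erase c))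
    (hci : c ∉ M i) (hcj : c ∉ M j) (hc'i : c' ∈ M i) (hc'j : c' ∈ M j)
    (g : Mat ι γ → ℝ) (B : ℝ)
    (hα : ∀ N, Rel {i, j} M N → |g (sw N k i c c') - g N| ≤ B)
    (hβ : ∀ N, Rel {i, j} M N → |g (sw N k j c c') - g N| ≤ B)
    (hγ : ∀ N, Rel {i, j} M N → ∀ e ∈ N i \ N j, |g (sw (sw N k j c c') j i c e) - g N| ≤ B)
    (hδ : ∀ N, Rel {i, j} M N → ∀ e ∈ N j \ N i, |g (sw (sw N k i c c') i j c e) - g N| ≤ B) :
    |avg (Rel {i, j}) g M' - avg (Rel {i, j}) g M| ≤ B := by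
  have h : CC {i, j, k} i j k M c c' := ⟨rfl, hij, hik, hjk, hc, hc', hci, hcj, hc'i, hc'j⟩
  have hF : univ.filter (fun y => Rel {i, j} M y) = cF {i, j, k} k M := by
    unfold cF
    apply Finset.filter_congr
    intro N _
    exact h.pair_iff M N
  have hF' : univ.filter (fun y => Rel {i, j} M' y) = cF' {i, j, k} k M c c' := by
    unfold cF'
    apply Finset.filter_congr
    intro N _
    rw [h.pair_iff M' N, hM']
    constructor
    · rintro ⟨a, b⟩
      exact ⟨(Rel.equiv _).trans hrel a, b⟩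
    · rintro ⟨a, b⟩
      exact ⟨(Rel.equiv _).trans ((Rel.equiv _).symm hrel) a, b⟩
  set κ : ℝ := ((M i \ M j).card : ℝ) with hκ
  set l : ℝ := ((M j \ M i).card : ℝ) with hl
  have hκ0 : 0 ≤ κ := Nat.cast_nonneg _
  have hl0 : 0 ≤ l := Nat.cast_nonneg _
  set ρ : ℝ := 1 + 1 + (l + 1)⁻¹ * κ + (κ + 1)⁻¹ * l with hρ
  have hρpos : 0 < ρ := by positivity
  set n : ℝ := ((cF {i, j, k} k M).card : ℝ) with hn
  have hnpos : 0 < n := by
    rw [hn, Nat.cast_pos, Finset.card_pos]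
    exact ⟨M, mem_cF.mpr ⟨(Rel.equiv _).refl M, rfl⟩⟩
  have hcard : ((cF' {i, j, k} k M c c').card : ℝ) = n * ρ := by
    have := h.sumF' (fun _ => (1 : ℝ))
    simp only [Finset.sum_const, nsmul_eq_mul, mul_one] at this
    rw [this]
    have e : ∀ N ∈ cF {i, j, k} k M, (1 + 1 + (l + 1)⁻¹ * ((N i \ N j).card : ℝ)
        + (κ + 1)⁻¹ * ((N j \ N i).card : ℝ)) = ρ := by
      intro N hN
      rw [h.cardF hN, h.swap.cardF hN]
    rw [Finset.sum_congr rfl e, Finset.sum_const, nsmul_eq_mul]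
  have hB : ∀ N ∈ cF {i, j, k} k M, |(g (sw N k i c c') + g (sw N k j c c')
        + (l + 1)⁻¹ * ∑ e ∈ N i \ N j, g (sw (sw N k j c c') j i c e)
        + (κ + 1)⁻¹ * ∑ e ∈ N j \ N i, g (sw (sw N k i c c') i j c e)) - ρ * g N| ≤ ρ * B := by
    intro N hN
    have hN' : Rel {i, j} M N := (h.pair_iff M N).mpr (mem_cF.mp hN)
    have e1 : ∑ e ∈ N i \ N j, (g (sw (sw N k j c c') j i c e) - g N)
        = ∑ e ∈ N i \ N j, g (sw (sw N k j c c') j i c e) - κ * g N := by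
      rw [Finset.sum_sub_distrib, Finset.sum_const, h.cardF hN, nsmul_eq_mul]
    have e2 : ∑ e ∈ N j \ N i, (g (sw (sw N k i c c') i j c e) - g N)
        = ∑ e ∈ N j \ N i, g (sw (sw N k i c c') i j c e) - l * g N := by
      rw [Finset.sum_sub_distrib, Finset.sum_const, h.swap.cardF hN, nsmul_eq_mul]
    have b1 : |∑ e ∈ N i \ N j, (g (sw (sw N k j c c') j i c e) - g N)| ≤ κ * B := by
      calc |∑ e ∈ N i \ N j, (g (sw (sw N k j c c') j i c e) - g N)|
          ≤ ∑ e ∈ N i \ N j, |g (sw (sw N k j c c') j i c e) - g N| :=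
            Finset.abs_sum_le_sum_abs _ _
        _ ≤ ∑ _e ∈ N i \ N j, B := Finset.sum_le_sum (fun e he => hγ N hN' e he)
        _ = κ * B := by rw [Finset.sum_const, h.cardF hN, nsmul_eq_mul]
    have b2 : |∑ e ∈ N j \ N i, (g (sw (sw N k i c c') i j c e) - g N)| ≤ l * B := by
      calc |∑ e ∈ N j \ N i, (g (sw (sw N k i c c') i j c e) - g N)|
          ≤ ∑ e ∈ N j \ N i, |g (sw (sw N k i c c') i j c e) - g N| :=
            Finset.abs_sum_le_sum_abs _ _
        _ ≤ ∑ _e ∈ N j \ N i, B := Finset.sum_le_sum (fun e he => hδ N hN' e he)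
        _ = l * B := by rw [Finset.sum_const, h.swap.cardF hN, nsmul_eq_mul]
    have e3 : (g (sw N k i c c') + g (sw N k j c c')
        + (l + 1)⁻¹ * ∑ e ∈ N i \ N j, g (sw (sw N k j c c') j i c e)
        + (κ + 1)⁻¹ * ∑ e ∈ N j \ N i, g (sw (sw N k i c c') i j c e)) - ρ * g N
        = (g (sw N k i c c') - g N) + (g (sw N k j c c') - g N)
          + (l + 1)⁻¹ * ∑ e ∈ N i \ N j, (g (sw (sw N k j c c') j i c e) - g N)
          + (κ + 1)⁻¹ * ∑ e ∈ N j \ N i, (g (sw (sw N k i c c') i j c e) - g N) := by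
      rw [e1, e2, hρ]; ring
    rw [e3]
    have p1 : 0 ≤ (l + 1)⁻¹ := by positivity
    have p2 : 0 ≤ (κ + 1)⁻¹ := by positivity
    have c1 : |(l + 1)⁻¹ * ∑ e ∈ N i \ N j, (g (sw (sw N k j c c') j i c e) - g N)|
        ≤ (l + 1)⁻¹ * (κ * B) := by
      rw [abs_mul, abs_of_nonneg p1]
      exact mul_le_mul_of_nonneg_left b1 p1
    have c2 : |(κ + 1)⁻¹ * ∑ e ∈ N j \ N i, (g (sw (sw N k i c c') i j c e) - g N)|
        ≤ (κ + 1)⁻¹ * (l * B) := by
      rw [abs_mul, abs_of_nonneg p2]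
      exact mul_le_mul_of_nonneg_left b2 p2
    calc _ ≤ |g (sw N k i c c') - g N| + |g (sw N k j c c') - g N|
          + |(l + 1)⁻¹ * ∑ e ∈ N i \ N j, (g (sw (sw N k j c c') j i c e) - g N)|
          + |(κ + 1)⁻¹ * ∑ e ∈ N j \ N i, (g (sw (sw N k i c c') i j c e) - g N)| := by
            refine (abs_add_le _ _).trans (add_le_add_left ?_ _)
            refine (abs_add_le _ _).trans (add_le_add_left ?_ _)
            exact abs_add_le _ _
      _ ≤ B + B + (l + 1)⁻¹ * (κ * B) + (κ + 1)⁻¹ * (l * B) :=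
            add_le_add (add_le_add (add_le_add (hα N hN') (hβ N hN')) c1) c2
      _ = ρ * B := by rw [hρ]; ring
  unfold avg
  rw [hF, hF', hcard, h.sumF' g]
  have e4 : (∑ N ∈ cF {i, j, k} k M, (g (sw N k i c c') + g (sw N k j c c')
        + (l + 1)⁻¹ * ∑ e ∈ N i \ N j, g (sw (sw N k j c c') j i c e)
        + (κ + 1)⁻¹ * ∑ e ∈ N j \ N i, g (sw (sw N k i c c') i j c e))) / (n * ρ)
        - (∑ N ∈ cF {i, j, k} k M, g N) / n
      = (∑ N ∈ cF {i, j, k} k M, ((g (sw N k i c c') + g (sw N k j c c')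
        + (l + 1)⁻¹ * ∑ e ∈ N i \ N j, g (sw (sw N k j c c') j i c e)
        + (κ + 1)⁻¹ * ∑ e ∈ N j \ N i, g (sw (sw N k i c c') i j c e)) - ρ * g N)) / (n * ρ) := by
    rw [Finset.sum_sub_distrib, ← Finset.mul_sum]
    generalize (∑ N ∈ cF {i, j, k} k M, (g (sw N k i c c') + g (sw N k j c c')
        + (l + 1)⁻¹ * ∑ e ∈ N i \ N j, g (sw (sw N k j c c') j i c e)
        + (κ + 1)⁻¹ * ∑ e ∈ N j \ N i, g (sw (sw N k i c c') i j c e))) = S1
    generalize (∑ N ∈ cF {i, j, k} k M, g N) = S0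
    have hn0 : n ≠ 0 := ne_of_gt hnpos
    have hρ0 : ρ ≠ 0 := ne_of_gt hρpos
    clear_value ρ n
    field_simp
  rw [e4, abs_div, abs_of_pos (mul_pos hnpos hρpos), div_le_iff₀ (mul_pos hnpos hρpos)]
  calc _ ≤ ∑ N ∈ cF {i, j, k} k M, |(g (sw N k i c c') + g (sw N k j c c')
        + (l + 1)⁻¹ * ∑ e ∈ N i \ N j, g (sw (sw N k j c c') j i c e)
        + (κ + 1)⁻¹ * ∑ e ∈ N j \ N i, g (sw (sw N k i c c') i j c e)) - ρ * g N| :=
          Finset.abs_sum_le_sum_abs _ _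
    _ ≤ ∑ _N ∈ cF {i, j, k} k M, ρ * B := Finset.sum_le_sum hB
    _ = B * (n * ρ) := by rw [Finset.sum_const, nsmul_eq_mul]; ring

end Mat

end P335h14
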