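import Mathlib

/-!
# P335 (KTV conjecture): common definitions for the bipartite / split theorem

Finite `L^2` calculus over a finite set `S` (counting measure), conditional expectations
given a map, and the model of 0/1 matrices with prescribed margins
(a matrix is the family of its rows, a row is the set of columns holding a 1).
-/

namespace Vale.Agent.Lib.P335

open Finset

section Abstract

variable {α : Type*} [DecidableEq α] {β : Type*} [DecidableEq β]

/-- inner product of real functions over the finite set `S` (counting measure) -/
def ip (S : Finset α) (f g : α → ℝ) : ℝ := ∑ x ∈ S, f x * g x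

/-- the fibre of `p` through `x`, inside `S` -/
def fib (S : Finset α) (p : α → β) (x : α) : Finset α := S.filter (fun y => p y = p x)

/-- conditional expectation given `p`, for the uniform measure on `S` -/
noncomputable def cE (S : Finset α) (p : α → β) (f : α → ℝ) : α → ℝ :=
  fun x => (∑ y ∈ fib S p x, f y) / ((fib S p x).card : ℝ)

/-- the complementary projection `I - E[ . | p]` -/
noncomputable def cD (S : Finset α) (p : α → β) (f : α → ℝ) : α → ℝ :=
  fun x => f x - cE S p f x

end Abstract

section Matrices

variable {ι κ : Type*} [Fintype ι] [DecidableEq ι] [Fintype κ] [DecidableEq κ]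

/-- 0/1 matrices with row sums `r` and column sums `s`; `x i` is the set of columns `c`
with a 1 at position `(i, c)` -/
def Om (r : ι → ℕ) (s : κ → ℕ) : Finset (ι → Finset κ) :=
  univ.filter (fun x => (∀ i, (x i).card = r i) ∧
    ∀ c, (univ.filter (fun i => c ∈ x i)).card = s c)

/-- forget the rows in `b` -/
def off (b : Finset ι) (x : ι → Finset κ) : ι → Finset κ := fun i => if i ∈ b then ∅ else x i

/-- `E_b`: resample the rows in `b` given all the other rows -/
noncomputable def Eb (r : ι → ℕ) (s : κ → ℕ) (b : Finset ι) (f : (ι → Finset κ) → ℝ) :
    (ι → Finset κ) → ℝ := cE (Om r s) (off b) f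

/-- `D_b = I - E_b` -/
noncomputable def Db (r : ι → ℕ) (s : κ → ℕ) (b : Finset ι) (f : (ι → Finset κ) → ℝ) :
    (ι → Finset κ) → ℝ := cD (Om r s) (off b) f

/-- the switch on rows `i, j` and columns `c, c'` is available at `x` -/
def Valid (x : ι → Finset κ) (i j : ι) (c c' : κ) : Prop :=
  i ≠ j ∧ c ∈ x i ∧ c' ∉ x i ∧ c' ∈ x j ∧ c ∉ x j

instance (x : ι → Finset κ) (i j : ι) (c c' : κ) : Decidable (Valid x i j c c') := by
  unfold Valid; infer_instance

/-- the result of the switch: the 1 of row `i` moves from `c` to `c'`, the 1 of row `j` moves
from `c'` to `c` -/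
def sw (x : ι → Finset κ) (i j : ι) (c c' : κ) : ι → Finset κ :=
  Function.update (Function.update x i (insert c' ((x i).erase c))) j (insert c ((x j).erase c'))

/-- sum of the squared increments of `f` over all switches on the rows `i, j` available at `x`
(ordered tuples: every switch of the unordered pair `{i,j}` is listed once here and once in
`grad2 f x j i`) -/
def grad2 (f : (ι → Finset κ) → ℝ) (x : ι → Finset κ) (i j : ι) : ℝ :=
  ∑ c, ∑ c', if Valid x i j c c' then (f (sw x i j c c') - f x) ^ 2 else 0

end Matrices

end Vale.Agent.Lib.P335
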